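import Vale.Agent.P034.Main

open Vale.Agent.P034

theorem Vale.Agent.Results.P034.Talagrand.result :
    ∃ K : ℝ, 0 < K ∧ K ≤ 2 ^ 25 ∧
      ∀ (X : Type) [Fintype X] [Nonempty X] (F : Set (Finset X)),
        IsUpperSet F → F.Nonempty → ∅ ∉ F → qFrac F ≤ K * qInt F :=
  ⟨2 ^ 25, by norm_num, le_rfl, fun _ _ _ F _ _ hF => qFrac_le F hF⟩
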